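import Vale.Agent.P121.Build

open MeasureTheory
open scoped ENNReal

namespace Vale.Agent.Results.P121.NoOptimalMonge

/-- Euclidean three-space, with the Euclidean norm, its Borel sigma-algebra and Lebesgue measure
`volume`. -/
abbrev R3 : Type := EuclideanSpace ℝ (Fin 3)

/-- The Coulomb cost `1/|x₁-x₂| + 1/|x₁-x₃| + 1/|x₂-x₃|` with values in `[0,∞]`;
it is `∞` as soon as two coordinates coincide (in `ℝ≥0∞` one has `0⁻¹ = ∞`). -/
noncomputable def coulombCost (x₁ x₂ x₃ : R3) : ℝ≥0∞ :=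
  (ENNReal.ofReal ‖x₁ - x₂‖)⁻¹ + (ENNReal.ofReal ‖x₁ - x₃‖)⁻¹ + (ENNReal.ofReal ‖x₂ - x₃‖)⁻¹

/-- `π` belongs to `Π(μ,μ,μ)`: the three coordinate marginals of `π` all equal `μ`. -/
def IsCoupling (μ : Measure R3) (π : Measure (R3 × R3 × R3)) : Prop :=
  π.map (fun p => p.1) = μ ∧ π.map (fun p => p.2.1) = μ ∧ π.map (fun p => p.2.2) = μ

/-- The Kantorovich value: the infimum of the Coulomb cost over `Π(μ,μ,μ)`. -/
noncomputable def kantorovichValue (μ : Measure R3) : ℝ≥0∞ :=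
  ⨅ (π : Measure (R3 × R3 × R3)) (_ : IsCoupling μ π), ∫⁻ p, coulombCost p.1 p.2.1 p.2.2 ∂π

/-- `(Id, T₂, T₃)_# μ` is an optimal Monge plan: `T₂, T₃` are Borel maps pushing `μ` to `μ` and the
Monge cost equals the Kantorovich value. -/
def IsOptimalMongePlan (μ : Measure R3) (T₂ T₃ : R3 → R3) : Prop :=
  Measurable T₂ ∧ Measurable T₃ ∧ μ.map T₂ = μ ∧ μ.map T₃ = μ ∧
    ∫⁻ x, coulombCost x (T₂ x) (T₃ x) ∂μ = kantorovichValue μ

theorem coulombCost_eq : coulombCost = Vale.Agent.P121.coul := by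
  funext x y z
  simp only [coulombCost, Vale.Agent.P121.coul, edist_dist, dist_eq_norm]

theorem kantorovichValue_eq (μ : Measure R3) :
    kantorovichValue μ = Vale.Agent.P121.kant Vale.Agent.P121.coul μ := by
  unfold kantorovichValue Vale.Agent.P121.kant
  rw [coulombCost_eq]
  rfl

/-- There is a Borel probability measure on `ℝ³`, absolutely continuous with respect to Lebesgue
measure and of finite Kantorovich value, that admits no optimal Monge plan. -/
theorem result : ∃ μ : Measure R3, IsProbabilityMeasure μ ∧ μ ≪ volume ∧ kantorovichValue μ < ∞ ∧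
    ¬ ∃ T₂ T₃ : R3 → R3, IsOptimalMongePlan μ T₂ T₃ := by
  obtain ⟨μ, h1, h2, h3, h4⟩ := Vale.Agent.P121.main_R3
  refine ⟨μ, h1, h2, ?_, ?_⟩
  · rw [kantorovichValue_eq]
    exact h3
  · rintro ⟨T₂, T₃, m2, m3, p2, p3, hc⟩
    rw [kantorovichValue_eq, coulombCost_eq] at hc
    exact h4 ⟨T₂, T₃, m2, m3, p2, p3, hc⟩

end Vale.Agent.Results.P121.NoOptimalMonge
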