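import Vale.Agent.Results.P121.NoOptimalMonge

open MeasureTheory
open scoped ENNReal

namespace Vale.Agent.Results.P121.NotAlwaysOptimalMonge

open Vale.Agent.Results.P121.NoOptimalMonge

/-- The assertion of Q1 is false: it is not true that every Borel probability measure on `ℝ³` that
is absolutely continuous with respect to Lebesgue measure and has finite Kantorovich value admits
an optimal Monge plan. -/
theorem result :
    ¬ ∀ μ : Measure R3, IsProbabilityMeasure μ → μ ≪ volume → kantorovichValue μ < ∞ →
      ∃ T₂ T₃ : R3 → R3, IsOptimalMongePlan μ T₂ T₃ := by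
  intro h
  obtain ⟨μ, h1, h2, h3, h4⟩ := Vale.Agent.Results.P121.NoOptimalMonge.result
  exact h4 (h μ h1 h2 h3)

end Vale.Agent.Results.P121.NotAlwaysOptimalMonge
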